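import Mathlib
import Crest.Prelude.Def_SpanningTrees

/-!
# Spanning trees: the matrix-tree theorem (Kirchhoff / Cauchy-Binet)

`Crest.Agent.SpTree.det_lap`: for a finite vertex set `S ∋ r` and weights `z` on edges, the determinant of
the reduced weighted Laplacian equals the sum over spanning trees of the products of weights.
-/

set_option autoImplicit false

open Crest.ProbabilityR.SpanningTrees

namespace Crest.Agent.SpTree

/-- signed incidence of the edge `e` and the vertex `v` -/
def sg (e : Sym2 ℕ) (v : ℕ) : ℤ := (if v = e.inf then 1 else 0) - (if v = e.sup then 1 else 0)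

/-- reduced weighted Laplacian: rows/columns the vertices in `S.erase r`, edges in `D`. -/
def lap {R : Type*} [CommRing R] (S : Finset ℕ) (r : ℕ) (D : Finset (Sym2 ℕ)) (z : Sym2 ℕ → R) :
    Matrix ↥(S.erase r) ↥(S.erase r) R :=
  Matrix.of fun u v => ∑ e ∈ D, ((sg e u : ℤ) : R) * (z e * ((sg e v : ℤ) : R))

/-- the square matrix of incidences attached to a choice of edges -/
def inc (S : Finset ℕ) (r : ℕ) (p : ↥(S.erase r) → Sym2 ℕ) :
    Matrix ↥(S.erase r) ↥(S.erase r) ℤ :=
  Matrix.of fun v i => sg (p i) v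

theorem det_lap_expand {R : Type*} [CommRing R] (S : Finset ℕ) (r : ℕ) (D : Finset (Sym2 ℕ))
    (z : Sym2 ℕ → R) :
    (lap S r D z).det = ∑ p ∈ Fintype.piFinset (fun _ : ↥(S.erase r) => D),
      (∏ i, z (p i)) * (((∏ i, sg (p i) i) * (inc S r p).det : ℤ) : R) := by
  classical
  rw [Matrix.det_apply']
  have h1 : ∀ σ : Equiv.Perm ↥(S.erase r), ∏ i, (lap S r D z) (σ i) i =
      ∑ p ∈ Fintype.piFinset (fun _ : ↥(S.erase r) => D),
        ∏ i, (((sg (p i) (σ i) : ℤ) : R) * (z (p i) * ((sg (p i) i : ℤ) : R))) := by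
    intro σ
    simp only [lap, Matrix.of_apply]
    rw [Finset.prod_univ_sum]
  simp_rw [h1, Finset.mul_sum]
  rw [Finset.sum_comm]
  apply Finset.sum_congr rfl
  intro p _
  rw [Matrix.det_apply']
  push_cast
  rw [Finset.mul_sum, Finset.mul_sum]
  apply Finset.sum_congr rfl
  intro σ _
  simp only [inc, Matrix.of_apply, Finset.prod_mul_distrib]
  ring

/-- sum of a function against signed incidences -/
theorem sum_sg {R : Type*} [CommRing R] (S : Finset ℕ) (r : ℕ) (e : Sym2 ℕ) (f : ℕ → R) :
    ∑ v : ↥(S.erase r), ((sg e v : ℤ) : R) * f v =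
      (if e.inf ∈ S.erase r then f e.inf else 0) - (if e.sup ∈ S.erase r then f e.sup else 0) := by
  classical
  rw [Finset.sum_coe_sort (S.erase r) (fun v => ((sg e v : ℤ) : R) * f v)]
  simp only [sg]
  push_cast
  simp only [sub_mul, ite_mul, one_mul, zero_mul, Finset.sum_sub_distrib, Finset.sum_ite_eq']

/-- adjacency closed sets: connectivity of the graph with vertex set `S` and edges `A`. -/
theorem mem_edgesIn {G : SimpleGraph ℕ} {S : Finset ℕ} {e : Sym2 ℕ} :
    e ∈ edgesIn G S ↔ (∀ v ∈ e, v ∈ S) ∧ e ∈ G.edgeSet := by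
  classical
  simp [edgesIn, Finset.mem_sym2_iff]

theorem mk_mem_edgesIn {G : SimpleGraph ℕ} {S : Finset ℕ} {a b : ℕ} :
    s(a, b) ∈ edgesIn G S ↔ (a ∈ S ∧ b ∈ S) ∧ G.Adj a b := by
  simp [mem_edgesIn, Sym2.mem_iff]

/-- the graph with vertex set `S` and edge set `A` -/
abbrev gr (S : Finset ℕ) (A : Finset (Sym2 ℕ)) : SimpleGraph (S : Set ℕ) :=
  (SimpleGraph.fromEdgeSet (A : Set (Sym2 ℕ))).induce (S : Set ℕ)

theorem card_edgeSet_gr {G : SimpleGraph ℕ} {S : Finset ℕ} {A : Finset (Sym2 ℕ)}
    (hA : A ⊆ edgesIn G S) : Nat.card (gr S A).edgeSet = A.card := by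
  classical
  rw [← Nat.card_eq_finsetCard]
  refine Nat.card_congr (Equiv.ofBijective
    (fun e : (gr S A).edgeSet => (⟨Sym2.map Subtype.val e.1, ?_⟩ : A)) ⟨?_, ?_⟩)
  · obtain ⟨e, he⟩ := e
    induction e with
    | _ a b =>
      have := he
      simp only [SimpleGraph.mem_edgeSet, SimpleGraph.comap_adj, SimpleGraph.fromEdgeSet_adj,
        Function.Embedding.subtype_apply] at this
      simpa using this.1
  · rintro ⟨e, he⟩ ⟨e', he'⟩ h
    simp only [Subtype.mk.injEq] at h
    exact Subtype.ext (Sym2.map.injective Subtype.val_injective h)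
  · rintro ⟨e, he⟩
    induction e with
    | _ a b =>
      have h := mk_mem_edgesIn.1 (hA he)
      refine ⟨⟨s(⟨a, h.1.1⟩, ⟨b, h.1.2⟩), ?_⟩, ?_⟩
      · simp only [SimpleGraph.mem_edgeSet, SimpleGraph.comap_adj, SimpleGraph.fromEdgeSet_adj,
        Function.Embedding.subtype_apply]
        exact ⟨he, h.2.ne⟩
      · simp

theorem isSpanningTreeOn_iff {G : SimpleGraph ℕ} {S : Finset ℕ} {A : Finset (Sym2 ℕ)}
    (hA : A ⊆ edgesIn G S) :
    IsSpanningTreeOn G S A ↔ (gr S A).Connected ∧ A.card + 1 = S.card := by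
  unfold IsSpanningTreeOn
  rw [SimpleGraph.isTree_iff_connected_and_card]
  rw [card_edgeSet_gr hA]
  simp [hA]

theorem gr_adj {S : Finset ℕ} {A : Finset (Sym2 ℕ)} {a b : (S : Set ℕ)} :
    (gr S A).Adj a b ↔ s((a : ℕ), (b : ℕ)) ∈ A ∧ (a : ℕ) ≠ b := by
  simp [gr]

/-- indicator vector of a vertex -/
def ind (S : Finset ℕ) (r v : ℕ) : ↥(S.erase r) → ℤ := fun u => if (u : ℕ) = v then 1 else 0

theorem ind_root (S : Finset ℕ) (r : ℕ) : ind S r r = 0 := by
  funext u
  have := Finset.ne_of_mem_erase u.2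
  simp [ind, this]

theorem sg_mk (S : Finset ℕ) (r : ℕ) (a b : ℕ) :
    (fun u : ↥(S.erase r) => sg s(a, b) u) = ind S r a - ind S r b ∨
    (fun u : ↥(S.erase r) => sg s(a, b) u) = ind S r b - ind S r a := by
  rcases le_total a b with h | h
  · left
    funext u
    simp [sg, ind, h]
  · right
    funext u
    simp [sg, ind, h]

theorem inc_isUnit_det {S : Finset ℕ} {r : ℕ} (hr : r ∈ S) {A : Finset (Sym2 ℕ)}
    {p : ↥(S.erase r) → Sym2 ℕ} (hp : ∀ e ∈ A, ∃ i, p i = e) (hc : (gr S A).Connected) :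
    IsUnit (inc S r p).det := by
  classical
  rw [← Matrix.isUnit_iff_isUnit_det, ← Matrix.mulVec_surjective_iff_isUnit]
  set W := LinearMap.range (Matrix.mulVecLin (inc S r p)) with hW
  have hcol : ∀ i, (fun u : ↥(S.erase r) => sg (p i) u) ∈ W := by
    intro i
    refine ⟨Pi.single i 1, ?_⟩
    rw [Matrix.mulVecLin_apply, Matrix.mulVec_single_one]
    rfl
  have hadj : ∀ a b : (S : Set ℕ), (gr S A).Adj a b → (ind S r a ∈ W) → ind S r b ∈ W := by
    intro a b hab ha
    obtain ⟨i, hi⟩ := hp _ (gr_adj.1 hab).1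
    have h := hcol i
    rw [hi] at h
    rcases sg_mk S r a b with h' | h'
    · rw [h'] at h
      have := W.sub_mem ha h
      simpa using this
    · rw [h'] at h
      have := W.add_mem ha h
      simpa using this
  have hall : ∀ b : (S : Set ℕ), ind S r b ∈ W := by
    intro b
    obtain ⟨w⟩ := hc.preconnected ⟨r, hr⟩ b
    have : ∀ (a b : (S : Set ℕ)) (w : (gr S A).Walk a b), ind S r a ∈ W → ind S r b ∈ W := by
      intro a b w
      induction w with
      | nil => exact id
      | cons h _ ih => exact fun ha => ih (hadj _ _ h ha)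
    apply this _ _ w
    simp [ind_root]
  have htop : W = ⊤ := by
    rw [eq_top_iff]
    intro f _
    have : f = ∑ v : ↥(S.erase r), f v • ind S r v := by
      funext u
      rw [Finset.sum_apply, Finset.sum_eq_single u]
      · simp [ind]
      · intro v _ hv
        have : (u : ℕ) ≠ v := fun h => hv (Subtype.ext h.symm)
        simp [ind, this]
      · simp
    rw [this]
    refine W.sum_mem fun v _ => W.smul_mem _ ?_
    exact hall ⟨v, Finset.mem_of_mem_erase v.2⟩
  intro y
  have : y ∈ W := by rw [htop]; trivial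
  obtain ⟨x, hx⟩ := this
  exact ⟨x, hx⟩

theorem inc_det_eq_zero {S : Finset ℕ} {r : ℕ} (hr : r ∈ S) {A : Finset (Sym2 ℕ)}
    {G : SimpleGraph ℕ} (hA : A ⊆ edgesIn G S)
    {p : ↥(S.erase r) → Sym2 ℕ} (hp : ∀ i, p i ∈ A) (hc : ¬ (gr S A).Connected) :
    (inc S r p).det = 0 := by
  classical
  have hne : Nonempty (S : Set ℕ) := ⟨⟨r, hr⟩⟩
  have : ∃ v : (S : Set ℕ), ¬ (gr S A).Reachable ⟨r, hr⟩ v := by
    by_contra h
    push Not at h
    apply hc
    rw [SimpleGraph.connected_iff]
    refine ⟨fun a b => (h a).symm.trans (h b), hne⟩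
  obtain ⟨v, hv⟩ := this
  set f : ℕ → ℤ := fun u => if h : u ∈ S then
    (if (gr S A).Reachable ⟨r, hr⟩ ⟨u, h⟩ then 0 else 1) else 0 with hf
  have hfr : f r = 0 := by simp [hf, hr]
  rw [← Matrix.exists_vecMul_eq_zero_iff]
  refine ⟨fun u => f u, ?_, ?_⟩
  · intro h
    have hvr : (v : ℕ) ≠ r := by
      intro h'
      apply hv
      have : v = ⟨r, hr⟩ := Subtype.ext h'
      rw [this]
    have := congrFun h ⟨v, Finset.mem_erase.2 ⟨hvr, v.2⟩⟩
    simp [hf] at this
    exact hv this
  · funext i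
    have h1 := sum_sg (R := ℤ) S r (p i) f
    simp only [Int.cast_id] at h1
    have h2 : Matrix.vecMul (fun u : ↥(S.erase r) => f u) (inc S r p) i =
        ∑ v : ↥(S.erase r), sg (p i) v * f v := by
      simp [Matrix.vecMul, dotProduct, inc, mul_comm]
    rw [h2, h1]
    have hpi := hp i
    generalize p i = e at hpi
    have he := hA hpi
    revert hpi he
    induction e with
    | _ a b =>
      intro hpi he
      rw [mk_mem_edgesIn] at he
      have hadj : (gr S A).Adj ⟨a, he.1.1⟩ ⟨b, he.1.2⟩ := by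
        rw [gr_adj]
        exact ⟨hpi, he.2.ne⟩
      have hfab : f a = f b := by
        have : (gr S A).Reachable ⟨r, hr⟩ ⟨a, he.1.1⟩ ↔ (gr S A).Reachable ⟨r, hr⟩ ⟨b, he.1.2⟩ :=
          ⟨fun h => h.trans hadj.reachable, fun h => h.trans hadj.reachable.symm⟩
        simp [hf, he.1.1, he.1.2, this]
      have hg : ∀ x ∈ S, (if x ∈ S.erase r then f x else 0) = f x := by
        intro x hx
        by_cases hxr : x = r
        · subst hxr; simp [hfr]
        · simp [hxr, hx]
      rcases le_total a b with h | h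
      · simp only [Sym2.inf_mk, Sym2.sup_mk, inf_eq_left.2 h, sup_eq_right.2 h]
        rw [hg a he.1.1, hg b he.1.2, hfab]; simp
      · simp only [Sym2.inf_mk, Sym2.sup_mk, inf_eq_right.2 h, sup_eq_left.2 h]
        rw [hg a he.1.1, hg b he.1.2, hfab]; simp

theorem sum_perm_inc {S : Finset ℕ} {r : ℕ} (q : ↥(S.erase r) → Sym2 ℕ) :
    ∑ σ : Equiv.Perm ↥(S.erase r), ((∏ i, sg (q (σ i)) i) * (inc S r (q ∘ σ)).det) =
      (inc S r q).det ^ 2 := by
  classical
  have h1 : ∀ σ : Equiv.Perm ↥(S.erase r), (inc S r (q ∘ σ)).det =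
      (Equiv.Perm.sign σ : ℤ) * (inc S r q).det := by
    intro σ
    exact Matrix.det_permute' σ (inc S r q)
  simp_rw [h1]
  have h2 : (inc S r q).det = ∑ σ : Equiv.Perm ↥(S.erase r),
      (Equiv.Perm.sign σ : ℤ) * ∏ i, sg (q (σ i)) i := by
    rw [← Matrix.det_transpose, Matrix.det_apply']
    rfl
  calc _ = (∑ σ : Equiv.Perm ↥(S.erase r), (Equiv.Perm.sign σ : ℤ) * ∏ i, sg (q (σ i)) i) *
        (inc S r q).det := by
        rw [Finset.sum_mul]
        apply Finset.sum_congr rfl
        intro σ _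
        ring
    _ = _ := by rw [← h2, sq]

/-- **Matrix-tree theorem** for the weighted Laplacian of the piece of `G` on `S`. -/
theorem det_lap {R : Type*} [CommRing R] (G : SimpleGraph ℕ) {S : Finset ℕ} {r : ℕ} (hr : r ∈ S)
    (z : Sym2 ℕ → R) [DecidablePred (fun A => IsSpanningTreeOn G S A)] :
    (lap S r (edgesIn G S) z).det =
      ∑ A ∈ (edgesIn G S).powerset.filter (fun A => IsSpanningTreeOn G S A), ∏ e ∈ A, z e := by
  classical
  rw [det_lap_expand]
  have hmaps : ∀ p ∈ Fintype.piFinset (fun _ : ↥(S.erase r) => edgesIn G S),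
      Finset.univ.image p ∈ (edgesIn G S).powerset := by
    intro p hp
    rw [Finset.mem_powerset]
    intro e he
    obtain ⟨i, _, rfl⟩ := Finset.mem_image.1 he
    exact Fintype.mem_piFinset.1 hp i
  rw [← Finset.sum_fiberwise_of_maps_to hmaps]
  rw [Finset.sum_filter]
  apply Finset.sum_congr rfl
  intro A hA
  rw [Finset.mem_powerset] at hA
  have hcard : Fintype.card ↥(S.erase r) + 1 = S.card := by
    rw [Fintype.card_coe, Finset.card_erase_add_one hr]
  split_ifs with hT
  · -- spanning tree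
    obtain ⟨hc, hc2⟩ := (isSpanningTreeOn_iff hA).1 hT
    have hcA : Fintype.card ↥(S.erase r) = Fintype.card A := by
      rw [Fintype.card_coe A]; omega
    obtain ⟨q⟩ : Nonempty (↥(S.erase r) ≃ A) := ⟨Fintype.equivOfCardEq hcA⟩
    have hbij : ∑ p ∈ Fintype.piFinset (fun _ : ↥(S.erase r) => edgesIn G S) with
          Finset.univ.image p = A,
        (∏ i, z (p i)) * (((∏ i, sg (p i) i) * (inc S r p).det : ℤ) : R) =
        ∑ σ : Equiv.Perm ↥(S.erase r),
          (∏ i, z (q (σ i))) * (((∏ i, sg (q (σ i)) i) *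
            (inc S r ((fun i => ((q i : A) : Sym2 ℕ)) ∘ σ)).det : ℤ) : R) := by
      symm
      refine Finset.sum_bij (fun σ _ => fun i => ((q (σ i) : A) : Sym2 ℕ)) ?_ ?_ ?_ ?_
      · intro σ _
        rw [Finset.mem_filter, Fintype.mem_piFinset]
        refine ⟨fun i => hA (q (σ i)).2, ?_⟩
        ext e
        simp only [Finset.mem_image, Finset.mem_univ, true_and]
        constructor
        · rintro ⟨i, rfl⟩; exact (q (σ i)).2
        · intro he
          refine ⟨σ.symm (q.symm ⟨e, he⟩), by simp⟩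
      · intro σ _ τ _ h
        ext i
        have := congrFun h i
        have h2 : q (σ i) = q (τ i) := Subtype.ext this
        rw [q.injective h2]
      · intro p hp
        rw [Finset.mem_filter, Fintype.mem_piFinset] at hp
        have hpA : ∀ i, p i ∈ A := by
          intro i; rw [← hp.2]; exact Finset.mem_image_of_mem _ (Finset.mem_univ i)
        have hpsur : Function.Surjective (fun i => (⟨p i, hpA i⟩ : A)) := by
          rintro ⟨e, he⟩
          rw [← hp.2] at he
          obtain ⟨i, _, hi⟩ := Finset.mem_image.1 he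
          exact ⟨i, Subtype.ext hi⟩
        have hpbij : Function.Bijective (fun i => (⟨p i, hpA i⟩ : A)) :=
          (Fintype.bijective_iff_surjective_and_card _).2 ⟨hpsur, hcA⟩
        refine ⟨(Equiv.ofBijective _ hpbij).trans q.symm, Finset.mem_univ _, ?_⟩
        funext i
        simp
      · intro σ _
        rfl
    rw [hbij]
    have hz : ∀ σ : Equiv.Perm ↥(S.erase r), ∏ i, z (q (σ i)) = ∏ e ∈ A, z e := by
      intro σ
      rw [← Finset.prod_coe_sort A z]
      exact Fintype.prod_equiv (σ.trans q) _ _ (fun i => rfl)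
    simp_rw [hz]
    rw [← Finset.mul_sum, ← Int.cast_sum, sum_perm_inc (fun i => ((q i : A) : Sym2 ℕ))]
    have hu : IsUnit (inc S r (fun i => ((q i : A) : Sym2 ℕ))).det :=
      inc_isUnit_det hr (A := A) (fun e he => ⟨q.symm ⟨e, he⟩, by simp⟩) hc
    rw [Int.isUnit_sq hu]
    simp
  · apply Finset.sum_eq_zero
    intro p hp
    rw [Finset.mem_filter, Fintype.mem_piFinset] at hp
    have hpA : ∀ i, p i ∈ A := by
      intro i; rw [← hp.2]; exact Finset.mem_image_of_mem _ (Finset.mem_univ i)
    have hdet : (inc S r p).det = 0 := by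
      by_cases hinj : Function.Injective p
      · apply inc_det_eq_zero hr hA hpA
        intro hc
        apply hT
        rw [isSpanningTreeOn_iff hA]
        refine ⟨hc, ?_⟩
        rw [← hp.2, Finset.card_image_of_injective _ hinj, Finset.card_univ, hcard]
      · obtain ⟨i, j, hij, hne⟩ : ∃ i j, p i = p j ∧ i ≠ j := by
          unfold Function.Injective at hinj
          push Not at hinj
          exact hinj
        apply Matrix.det_zero_of_column_eq hne
        intro k
        simp [inc, hij]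
    rw [hdet]
    simp

/-- extension by zero of a vector on `S.erase r` -/
noncomputable def extend {R : Type*} [Zero R] (S : Finset ℕ) (r : ℕ) (v : ↥(S.erase r) → R) : ℕ → R :=
  fun u => if h : u ∈ S.erase r then v ⟨u, h⟩ else 0

theorem extend_coe {R : Type*} [Zero R] {S : Finset ℕ} {r : ℕ} (v : ↥(S.erase r) → R)
    (u : ↥(S.erase r)) : extend S r v u = v u := by
  simp [extend, u.2]

theorem extend_root {R : Type*} [Zero R] {S : Finset ℕ} {r : ℕ} (v : ↥(S.erase r) → R) :
    extend S r v r = 0 := by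
  simp [extend]

/-- gradient of a function on an edge, oriented from the larger to the smaller endpoint -/
def grad {R : Type*} [Sub R] (f : ℕ → R) (e : Sym2 ℕ) : R := f e.inf - f e.sup

theorem sum_sg_vec {R : Type*} [CommRing R] {S : Finset ℕ} {r : ℕ} (e : Sym2 ℕ)
    (v : ↥(S.erase r) → R) :
    ∑ u : ↥(S.erase r), ((sg e u : ℤ) : R) * v u = grad (extend S r v) e := by
  have h := sum_sg (R := R) S r e (extend S r v)
  simp only [extend_coe] at h
  rw [h]
  have h2 : ∀ x, (if x ∈ S.erase r then extend S r v x else 0) = extend S r v x := by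
    intro x
    by_cases hx : x ∈ S.erase r
    · rw [if_pos hx]
    · rw [if_neg hx, extend, dif_neg hx]
  rw [h2, h2, grad]

theorem grad_mk_eq_zero_iff {R : Type*} [CommRing R] (f : ℕ → R) (a b : ℕ) :
    grad f s(a, b) = 0 ↔ f a = f b := by
  unfold grad
  rcases le_total a b with h | h
  · simp [h, sub_eq_zero]
  · simp [h, sub_eq_zero, eq_comm]

/-- a function with zero gradient on the edges of a connected piece is constant -/
theorem const_of_grad {R : Type*} [CommRing R] {G : SimpleGraph ℕ} {S : Finset ℕ}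
    (hS : (G.induce (S : Set ℕ)).Connected) (f : ℕ → R)
    (h : ∀ e ∈ edgesIn G S, grad f e = 0) (a b : ℕ) (ha : a ∈ S) (hb : b ∈ S) : f a = f b := by
  obtain ⟨w⟩ := hS.preconnected ⟨a, ha⟩ ⟨b, hb⟩
  have : ∀ (a b : (S : Set ℕ)) (w : (G.induce (S : Set ℕ)).Walk a b), f a = f b := by
    intro a b w
    induction w with
    | nil => rfl
    | @cons u v w hadj _ ih =>
      rw [← ih]
      rw [← grad_mk_eq_zero_iff]
      apply h
      rw [mk_mem_edgesIn]
      exact ⟨⟨u.2, v.2⟩, hadj⟩
  exact this _ _ w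

theorem lap_mulVec {R : Type*} [CommRing R] {S : Finset ℕ} {r : ℕ} (D : Finset (Sym2 ℕ))
    (z : Sym2 ℕ → R) (v : ↥(S.erase r) → R) (u : ↥(S.erase r)) :
    (lap S r D z).mulVec v u = ∑ e ∈ D, ((sg e u : ℤ) : R) * (z e * grad (extend S r v) e) := by
  simp only [Matrix.mulVec, dotProduct, lap, Matrix.of_apply]
  simp_rw [Finset.sum_mul]
  rw [Finset.sum_comm]
  apply Finset.sum_congr rfl
  intro e _
  rw [← sum_sg_vec, Finset.mul_sum, Finset.mul_sum]
  apply Finset.sum_congr rfl
  intro w _
  ring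

theorem extend_map {R R' : Type*} [Zero R] [Zero R'] (S : Finset ℕ) (r : ℕ) (v : ↥(S.erase r) → R)
    (φ : R → R') (h0 : φ 0 = 0) (x : ℕ) :
    extend S r (fun u => φ (v u)) x = φ (extend S r v x) := by
  unfold extend
  split_ifs
  · rfl
  · exact h0.symm

/-- **(T1)** the spanning tree polynomial does not vanish on the upper half plane. -/
theorem treePoly_ne_zero {G : SimpleGraph ℕ} (S : Finset ℕ)
    (hS : (G.induce (S : Set ℕ)).Connected) (z : Sym2 ℕ → ℂ)
    (hz : ∀ e ∈ edgesIn G S, 0 < (z e).im) [DecidablePred (fun A => IsSpanningTreeOn G S A)] :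
    (∑ A ∈ (edgesIn G S).powerset.filter (fun A => IsSpanningTreeOn G S A), ∏ e ∈ A, z e) ≠ 0 := by
  classical
  obtain ⟨r, hr⟩ : ∃ r, r ∈ S := by
    obtain ⟨⟨r, hr⟩⟩ := hS.nonempty
    exact ⟨r, hr⟩
  rw [← det_lap G hr z]
  intro hdet
  rw [← Matrix.exists_mulVec_eq_zero_iff] at hdet
  obtain ⟨v, hv0, hv⟩ := hdet
  set f := extend S r v with hf
  have h1 : ∑ e ∈ edgesIn G S, z e * (starRingEnd ℂ (grad f e) * grad f e) = 0 := by
    have h2 : ∑ u : ↥(S.erase r), starRingEnd ℂ (v u) *
        (lap S r (edgesIn G S) z).mulVec v u = 0 := by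
      rw [hv]; simp
    rw [← h2]
    simp_rw [lap_mulVec, Finset.mul_sum]
    rw [Finset.sum_comm]
    apply Finset.sum_congr rfl
    intro e _
    have h3 : starRingEnd ℂ (grad f e) = ∑ u : ↥(S.erase r),
        ((sg e u : ℤ) : ℂ) * starRingEnd ℂ (v u) := by
      rw [sum_sg_vec e (fun u => starRingEnd ℂ (v u))]
      unfold grad
      rw [map_sub, hf, extend_map S r v (starRingEnd ℂ) (map_zero _),
        extend_map S r v (starRingEnd ℂ) (map_zero _)]
    rw [h3, ← hf, Finset.sum_mul, Finset.mul_sum]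
    apply Finset.sum_congr rfl
    intro u _
    ring
  have h2 : ∑ e ∈ edgesIn G S, (z e).im * Complex.normSq (grad f e) = 0 := by
    have := congrArg Complex.im h1
    rw [Complex.im_sum] at this
    simp only [Complex.zero_im] at this
    rw [← this]
    apply Finset.sum_congr rfl
    intro e _
    rw [← Complex.normSq_eq_conj_mul_self]
    simp
  have h3 : ∀ e ∈ edgesIn G S, grad f e = 0 := by
    intro e he
    have := (Finset.sum_eq_zero_iff_of_nonneg (fun e he =>
      mul_nonneg (hz e he).le (Complex.normSq_nonneg _))).1 h2 e he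
    rcases mul_eq_zero.1 this with h | h
    · exact absurd h (hz e he).ne'
    · exact Complex.normSq_eq_zero.1 h
  apply hv0
  funext u
  have := const_of_grad hS f h3 u r (Finset.mem_of_mem_erase u.2) hr
  rw [hf, extend_coe, extend_root] at this
  exact this

end Crest.Agent.SpTree
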