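import Mathlib
import Crest.Agent.SpTree.Basic

/-!
# Spanning trees: convergence of the uniform spanning trees of an exhaustion
-/

set_option autoImplicit false

open Crest.ProbabilityR.SpanningTrees Filter Topology

namespace Crest.Agent.SpTree

/-- the Hilbert space of square summable functions on unordered pairs -/
abbrev HE : Type := lp (fun _ : Sym2 ℕ => ℝ) 2

noncomputable def dl (e : Sym2 ℕ) : HE := lp.single 2 e (1 : ℝ)

theorem dl_apply (e e' : Sym2 ℕ) : dl e e' = if e' = e then 1 else 0 := by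
  simp [dl, Pi.single_apply]

theorem inner_dl_left (e : Sym2 ℕ) (f : HE) : inner ℝ (dl e) f = f e := by
  rw [dl, lp.inner_single_left]
  simp

theorem edgesIn_mono (G : SimpleGraph ℕ) {S T : Finset ℕ} (h : S ⊆ T) :
    edgesIn G S ⊆ edgesIn G T := by
  intro e he
  rw [mem_edgesIn] at he ⊢
  exact ⟨fun v hv => h (he.1 v hv), he.2⟩

/-- cycle space of the piece -/
noncomputable def cyc (G : SimpleGraph ℕ) (S : Finset ℕ) : Submodule ℝ HE where
  carrier := {f | (∀ e, e ∉ edgesIn G S → f e = 0) ∧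
    ∀ g : ℕ → ℝ, ∑ e ∈ edgesIn G S, f e * grad g e = 0}
  add_mem' := by
    rintro a b ⟨ha, ha'⟩ ⟨hb, hb'⟩
    refine ⟨fun e he => ?_, fun g => ?_⟩
    · simp [ha e he, hb e he]
    · simp only [lp.coeFn_add, Pi.add_apply, add_mul, Finset.sum_add_distrib, ha' g, hb' g, add_zero]
  zero_mem' := by
    refine ⟨fun e he => ?_, fun g => ?_⟩ <;> simp
  smul_mem' := by
    rintro c a ⟨ha, ha'⟩
    refine ⟨fun e he => ?_, fun g => ?_⟩
    · simp [ha e he]
    · simp only [lp.coeFn_smul, Pi.smul_apply, smul_eq_mul, mul_assoc, ← Finset.mul_sum, ha' g,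
        mul_zero]

theorem mem_cyc {G : SimpleGraph ℕ} {S : Finset ℕ} {f : HE} : f ∈ cyc G S ↔
    (∀ e, e ∉ edgesIn G S → f e = 0) ∧
    ∀ g : ℕ → ℝ, ∑ e ∈ edgesIn G S, f e * grad g e = 0 := Iff.rfl

theorem cyc_mono (G : SimpleGraph ℕ) : Monotone (cyc G) := by
  intro S T h f hf
  rw [mem_cyc] at hf ⊢
  refine ⟨fun e he => hf.1 e (fun h' => he (edgesIn_mono G h h')), fun g => ?_⟩
  rw [← hf.2 g]
  symm
  apply Finset.sum_subset (edgesIn_mono G h)
  intro e _ he
  rw [hf.1 e he, zero_mul]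

instance (G : SimpleGraph ℕ) (S : Finset ℕ) : FiniteDimensional ℝ (cyc G S) := by
  let φ : cyc G S →ₗ[ℝ] (edgesIn G S → ℝ) :=
    { toFun := fun f e => (f : HE) e
      map_add' := by intro a b; funext e; simp
      map_smul' := by intro a b; funext e; simp }
  apply FiniteDimensional.of_injective φ
  intro a b h
  apply Subtype.ext
  ext e
  by_cases he : e ∈ edgesIn G S
  · exact congrFun h ⟨e, he⟩
  · rw [a.2.1 e he, b.2.1 e he]

theorem iSup_cyc (G : SimpleGraph ℕ) (S : ℕ → Finset ℕ) (hm : Monotone S)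
    (hex : ∀ v, ∃ n, v ∈ S n) : ⨆ n, cyc G (S n) = ⨆ T : Finset ℕ, cyc G T := by
  apply le_antisymm
  · exact iSup_le fun n => le_iSup (cyc G) (S n)
  · refine iSup_le fun T => ?_
    have : ∃ n, T ⊆ S n := by
      classical
      induction T using Finset.induction_on with
      | empty => exact ⟨0, by simp⟩
      | insert a T _ ih =>
        obtain ⟨n, hn⟩ := ih
        obtain ⟨m, hma⟩ := hex a
        refine ⟨max n m, ?_⟩
        rw [Finset.insert_subset_iff]
        exact ⟨hm (le_max_right _ _) hma, hn.trans (hm (le_max_left _ _))⟩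
    obtain ⟨n, hn⟩ := this
    exact (cyc_mono G hn).trans (le_iSup (fun n => cyc G (S n)) n)

/-- real reduced Laplacian with unit weights is invertible for a connected piece -/
theorem lap_det_ne_zero {G : SimpleGraph ℕ} {S : Finset ℕ}
    (hS : (G.induce (S : Set ℕ)).Connected) {r : ℕ} (hr : r ∈ S) :
    (lap S r (edgesIn G S) (fun _ => (1 : ℝ))).det ≠ 0 := by
  classical
  intro hdet
  rw [← Matrix.exists_mulVec_eq_zero_iff] at hdet
  obtain ⟨v, hv0, hv⟩ := hdet
  set f := extend S r v with hf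
  have h1 : ∑ e ∈ edgesIn G S, grad f e * grad f e = 0 := by
    have h2 : ∑ u : ↥(S.erase r), v u *
        (lap S r (edgesIn G S) (fun _ => (1 : ℝ))).mulVec v u = 0 := by
      rw [hv]; simp
    rw [← h2]
    simp_rw [lap_mulVec, Finset.mul_sum]
    rw [Finset.sum_comm]
    apply Finset.sum_congr rfl
    intro e _
    rw [← hf]
    nth_rewrite 1 [hf]
    rw [← sum_sg_vec, Finset.sum_mul]
    apply Finset.sum_congr rfl
    intro u _
    ring
  have h3 : ∀ e ∈ edgesIn G S, grad f e = 0 := by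
    intro e he
    have := (Finset.sum_eq_zero_iff_of_nonneg (fun e he => mul_self_nonneg _)).1 h1 e he
    exact mul_self_eq_zero.1 this
  apply hv0
  funext u
  have := const_of_grad hS f h3 u r (Finset.mem_of_mem_erase u.2) hr
  rw [hf, extend_coe, extend_root] at this
  exact this

/-- incidence vector of an edge -/
def bvec (S : Finset ℕ) (r : ℕ) (e : Sym2 ℕ) : ↥(S.erase r) → ℝ := fun u => ((sg e u : ℤ) : ℝ)

/-- the potential of unit current flow across `f` -/
noncomputable def pot (G : SimpleGraph ℕ) (S : Finset ℕ) (r : ℕ) (f : Sym2 ℕ) :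
    ↥(S.erase r) → ℝ :=
  ((lap S r (edgesIn G S) (fun _ => (1 : ℝ)))⁻¹).mulVec (bvec S r f)

theorem lap_pot {G : SimpleGraph ℕ} {S : Finset ℕ}
    (hS : (G.induce (S : Set ℕ)).Connected) {r : ℕ} (hr : r ∈ S) (f : Sym2 ℕ)
    (u : ↥(S.erase r)) :
    ∑ e ∈ edgesIn G S, ((sg e u : ℤ) : ℝ) * grad (extend S r (pot G S r f)) e =
      ((sg f u : ℤ) : ℝ) := by
  have h := lap_mulVec (edgesIn G S) (fun _ => (1 : ℝ)) (pot G S r f) u
  simp only [one_mul] at h
  rw [← h, pot, Matrix.mulVec_mulVec, Matrix.mul_nonsing_inv _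
    (isUnit_iff_ne_zero.2 (lap_det_ne_zero hS hr)), Matrix.one_mulVec]
  rfl

theorem pot_weak {G : SimpleGraph ℕ} {S : Finset ℕ}
    (hS : (G.induce (S : Set ℕ)).Connected) {r : ℕ} (hr : r ∈ S) (f : Sym2 ℕ)
    (hf : f ∈ edgesIn G S) (g : ℕ → ℝ) :
    ∑ e ∈ edgesIn G S, grad (extend S r (pot G S r f)) e * grad g e = grad g f := by
  classical
  set g' : ↥(S.erase r) → ℝ := fun u => g u - g r with hg'
  have hgr : ∀ e ∈ edgesIn G S, grad g e = grad (extend S r g') e := by
    intro e
    induction e with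
    | _ a b =>
      intro he
      rw [mk_mem_edgesIn] at he
      have key : ∀ x ∈ S, extend S r g' x = g x - g r := by
        intro x hx
        by_cases hxr : x = r
        · subst hxr; rw [extend_root]; ring
        · rw [extend, dif_pos (Finset.mem_erase.2 ⟨hxr, hx⟩)]
      unfold grad
      rcases le_total a b with h | h
      · simp only [Sym2.inf_mk, Sym2.sup_mk, inf_eq_left.2 h, sup_eq_right.2 h]
        rw [key a he.1.1, key b he.1.2]; ring
      · simp only [Sym2.inf_mk, Sym2.sup_mk, inf_eq_right.2 h, sup_eq_left.2 h]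
        rw [key a he.1.1, key b he.1.2]; ring
  rw [hgr f hf, ← sum_sg_vec]
  have h1 : ∑ e ∈ edgesIn G S, grad (extend S r (pot G S r f)) e * grad g e =
      ∑ e ∈ edgesIn G S, ∑ u : ↥(S.erase r), grad (extend S r (pot G S r f)) e *
        (((sg e u : ℤ) : ℝ) * g' u) := by
    apply Finset.sum_congr rfl
    intro e he
    rw [hgr e he, ← sum_sg_vec e g', Finset.mul_sum]
  rw [h1, Finset.sum_comm]
  apply Finset.sum_congr rfl
  intro u _
  rw [← lap_pot hS hr f u, Finset.sum_mul]
  apply Finset.sum_congr rfl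
  intro e _
  ring

/-- unit current flow across `f` -/
noncomputable def flow (G : SimpleGraph ℕ) (S : Finset ℕ) (r : ℕ) (f : Sym2 ℕ) : HE :=
  ∑ e ∈ edgesIn G S, grad (extend S r (pot G S r f)) e • dl e

theorem flow_apply {G : SimpleGraph ℕ} {S : Finset ℕ} {r : ℕ} {f : Sym2 ℕ} (e : Sym2 ℕ) :
    flow G S r f e = if e ∈ edgesIn G S then grad (extend S r (pot G S r f)) e else 0 := by
  classical
  have : (flow G S r f) e = ∑ e' ∈ edgesIn G S,
      (grad (extend S r (pot G S r f)) e' • dl e') e := by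
    unfold flow
    rw [lp.coeFn_sum, Finset.sum_apply]
  rw [this]
  simp [dl_apply]

theorem starProjection_cyc {G : SimpleGraph ℕ} {S : Finset ℕ}
    (hS : (G.induce (S : Set ℕ)).Connected) {r : ℕ} (hr : r ∈ S) (f : Sym2 ℕ)
    (hf : f ∈ edgesIn G S) :
    (cyc G S).starProjection (dl f) = dl f - flow G S r f := by
  classical
  apply Submodule.eq_starProjection_of_mem_of_inner_eq_zero
  · rw [mem_cyc]
    refine ⟨fun e he => ?_, fun g => ?_⟩
    · have hne : e ≠ f := fun h => he (h ▸ hf)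
      simp [dl_apply, flow_apply, he, hne]
    · have h := pot_weak hS hr f hf g
      have h2 : ∑ e ∈ edgesIn G S, dl f e * grad g e = grad g f := by
        rw [Finset.sum_eq_single f]
        · simp [dl_apply]
        · intro e _ he; simp [dl_apply, he]
        · intro h; exact absurd hf h
      simp only [lp.coeFn_sub, Pi.sub_apply, sub_mul, Finset.sum_sub_distrib, h2]
      rw [Finset.sum_congr rfl (fun e he => by rw [flow_apply, if_pos he]), h, sub_self]
  · intro w hw
    rw [sub_sub_cancel, flow, sum_inner]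
    simp_rw [inner_smul_left, inner_dl_left]
    rw [mem_cyc] at hw
    rw [← hw.2 (extend S r (pot G S r f))]
    apply Finset.sum_congr rfl
    intro e _
    simp [mul_comm]

/-- the transfer kernel -/
noncomputable def kern (U : Submodule ℝ HE) [U.HasOrthogonalProjection] (e f : Sym2 ℕ) : ℝ :=
  inner ℝ (dl e) (dl f - U.starProjection (dl f))

theorem kern_cyc {G : SimpleGraph ℕ} {S : Finset ℕ}
    (hS : (G.induce (S : Set ℕ)).Connected) {r : ℕ} (hr : r ∈ S) (e f : Sym2 ℕ)
    (he : e ∈ edgesIn G S) (hf : f ∈ edgesIn G S) :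
    kern (cyc G S) e f =
      dotProduct (bvec S r e) (((lap S r (edgesIn G S) (fun _ => (1 : ℝ)))⁻¹).mulVec (bvec S r f)) := by
  rw [kern, starProjection_cyc hS hr f hf, sub_sub_cancel, inner_dl_left, flow_apply, if_pos he,
    ← sum_sg_vec]
  rfl

/-- limit kernel -/
noncomputable def kernInf (G : SimpleGraph ℕ) (e f : Sym2 ℕ) : ℝ :=
  kern ((⨆ T : Finset ℕ, cyc G T).topologicalClosure) e f

theorem tendsto_kern (G : SimpleGraph ℕ) (S : ℕ → Finset ℕ) (hm : Monotone S)
    (hex : ∀ v, ∃ n, v ∈ S n) (e f : Sym2 ℕ) :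
    Tendsto (fun n => kern (cyc G (S n)) e f) atTop (𝓝 (kernInf G e f)) := by
  have h := Submodule.starProjection_tendsto_closure_iSup (fun n => cyc G (S n))
    (fun a b hab => cyc_mono G (hm hab)) (dl f)
  unfold kern kernInf
  have h2 : Tendsto (fun n => inner ℝ (dl e) (dl f - (cyc G (S n)).starProjection (dl f))) atTop
      (𝓝 (inner ℝ (dl e)
        (dl f - ((⨆ n, cyc G (S n)).topologicalClosure).starProjection (dl f)))) :=
    tendsto_const_nhds.inner (tendsto_const_nhds.sub h)
  have h3 := iSup_cyc G S hm hex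
  simp only [kern]
  convert h2 using 5
  all_goals rw [h3]

/-- number of spanning trees weighted by `2 ^ |T ∩ F|`, as a determinant -/
theorem det_two_pow {G : SimpleGraph ℕ} {S : Finset ℕ}
    (hS : (G.induce (S : Set ℕ)).Connected) {r : ℕ} (hr : r ∈ S) (F : Finset (Sym2 ℕ))
    (hF : F ⊆ edgesIn G S) :
    (lap S r (edgesIn G S) (fun e => if e ∈ F then (2 : ℝ) else 1)).det =
      (lap S r (edgesIn G S) (fun _ => (1 : ℝ))).det *
        (1 + Matrix.of fun e f : F => kern (cyc G S) e f).det := by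
  classical
  set L := lap S r (edgesIn G S) (fun _ => (1 : ℝ)) with hL
  set B : Matrix ↥(S.erase r) F ℝ := Matrix.of fun u e => ((sg e u : ℤ) : ℝ) with hB
  have h1 : lap S r (edgesIn G S) (fun e => if e ∈ F then (2 : ℝ) else 1) = L + B * B.transpose := by
    ext u v
    simp only [lap, Matrix.add_apply, Matrix.of_apply, Matrix.mul_apply, Matrix.transpose_apply, hL,
      hB]
    rw [Finset.sum_coe_sort F (fun e => ((sg e u : ℤ) : ℝ) * ((sg e v : ℤ) : ℝ))]
    have h2 : ∑ e ∈ F, ((sg e u : ℤ) : ℝ) * ((sg e v : ℤ) : ℝ) =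
        ∑ e ∈ edgesIn G S, if e ∈ F then ((sg e u : ℤ) : ℝ) * ((sg e v : ℤ) : ℝ) else 0 := by
      rw [Finset.sum_ite_mem, Finset.inter_eq_right.2 hF]
    rw [h2, ← Finset.sum_add_distrib]
    apply Finset.sum_congr rfl
    intro e _
    split_ifs <;> ring
  have hu : IsUnit L.det := isUnit_iff_ne_zero.2 (lap_det_ne_zero hS hr)
  have h3 : L + B * B.transpose = L * (1 + L⁻¹ * B * B.transpose) := by
    rw [mul_add, mul_one, Matrix.mul_assoc L⁻¹, ← Matrix.mul_assoc L, Matrix.mul_nonsing_inv _ hu,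
      Matrix.one_mul]
  rw [h1, h3, Matrix.det_mul, Matrix.det_one_add_mul_comm]
  congr 3
  ext e f
  rw [Matrix.of_apply, kern_cyc hS hr e f (hF e.2) (hF f.2), ← hL]
  rw [Matrix.mul_apply']
  congr 1

/-- number of spanning trees of the piece containing `F` -/
noncomputable def cnt (G : SimpleGraph ℕ) (S : Finset ℕ) (F : Finset (Sym2 ℕ)) : ℕ := by
  classical
  exact ((edgesIn G S).powerset.filter (fun A => IsSpanningTreeOn G S A ∧ F ⊆ A)).card

theorem ust_eq (G : SimpleGraph ℕ) (S : Finset ℕ) (F : Finset (Sym2 ℕ)) :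
    ustContains G S F = (cnt G S F : ℝ) / (cnt G S ∅ : ℝ) := by
  classical
  unfold ustContains cnt
  simp only [Finset.empty_subset, and_true]
  congr! 4

theorem cnt_empty_eq_det {G : SimpleGraph ℕ} {S : Finset ℕ} {r : ℕ} (hr : r ∈ S) :
    (cnt G S ∅ : ℝ) = (lap S r (edgesIn G S) (fun _ => (1 : ℝ))).det := by
  classical
  rw [det_lap G hr, cnt]
  simp

theorem sum_cnt_eq_det {G : SimpleGraph ℕ} {S : Finset ℕ} {r : ℕ} (hr : r ∈ S)
    (F : Finset (Sym2 ℕ)) :
    ∑ F' ∈ F.powerset, (cnt G S F' : ℝ) =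
      (lap S r (edgesIn G S) (fun e => if e ∈ F then (2 : ℝ) else 1)).det := by
  classical
  rw [det_lap G hr]
  simp only [cnt]
  have h1 : ∀ F' ∈ F.powerset, (((edgesIn G S).powerset.filter
      (fun A => IsSpanningTreeOn G S A ∧ F' ⊆ A)).card : ℝ) =
      ∑ A ∈ (edgesIn G S).powerset.filter (fun A => IsSpanningTreeOn G S A),
        if F' ⊆ A then (1 : ℝ) else 0 := by
    intro F' _
    rw [Finset.sum_boole, Finset.filter_filter]
  rw [Finset.sum_congr rfl h1, Finset.sum_comm]
  apply Finset.sum_congr rfl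
  intro A _
  rw [Finset.sum_boole]
  rw [Finset.prod_ite, Finset.prod_const, Finset.prod_const_one, mul_one]
  have h2 : F.powerset.filter (fun F' => F' ⊆ A) = (A.filter (fun e => e ∈ F)).powerset := by
    ext F'
    simp only [Finset.mem_filter, Finset.mem_powerset]
    constructor
    · rintro ⟨h1, h2⟩ e he
      exact Finset.mem_filter.2 ⟨h2 he, h1 he⟩
    · intro h
      exact ⟨fun e he => (Finset.mem_filter.1 (h he)).2, fun e he => (Finset.mem_filter.1 (h he)).1⟩
  rw [h2, Finset.card_powerset]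
  push_cast
  rfl

theorem sum_ust {G : SimpleGraph ℕ} {S : Finset ℕ}
    (hS : (G.induce (S : Set ℕ)).Connected) (F : Finset (Sym2 ℕ))
    (hF : F ⊆ edgesIn G S) :
    ∑ F' ∈ F.powerset, ustContains G S F' =
      (1 + Matrix.of fun e f : F => kern (cyc G S) e f).det := by
  obtain ⟨r, hr⟩ : ∃ r, r ∈ S := by
    obtain ⟨⟨r, hr⟩⟩ := hS.nonempty
    exact ⟨r, hr⟩
  simp_rw [ust_eq]
  rw [← Finset.sum_div, sum_cnt_eq_det hr, det_two_pow hS hr F hF, cnt_empty_eq_det hr]
  exact mul_div_cancel_left₀ _ (lap_det_ne_zero hS hr)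

theorem eventually_subset_edgesIn {G : SimpleGraph ℕ} (F : Finset (Sym2 ℕ))
    (hF : (↑F : Set (Sym2 ℕ)) ⊆ G.edgeSet) (S : ℕ → Finset ℕ) (hm : Monotone S)
    (hex : ∀ v, ∃ n, v ∈ S n) : ∀ᶠ n in atTop, F ⊆ edgesIn G (S n) := by
  classical
  have h1 : ∀ e ∈ F, ∀ᶠ n in atTop, e ∈ edgesIn G (S n) := by
    intro e
    induction e with
    | _ a b =>
      intro he
      obtain ⟨n, hn⟩ := hex a
      obtain ⟨m, hma⟩ := hex b
      filter_upwards [eventually_ge_atTop n, eventually_ge_atTop m] with k hk hk'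
      rw [mk_mem_edgesIn]
      exact ⟨⟨hm hk hn, hm hk' hma⟩, hF he⟩
  have h2 := (Filter.eventually_all_finset F).2 h1
  filter_upwards [h2] with n hn e he using hn e he

/-- **(T2)** -/
theorem exists_tendsto_ustContains {G : SimpleGraph ℕ} (F : Finset (Sym2 ℕ))
    (hF : (↑F : Set (Sym2 ℕ)) ⊆ G.edgeSet) :
    ∃ p : ℝ, ∀ S : ℕ → Finset ℕ, Monotone S → (∀ v, ∃ n, v ∈ S n) →
      (∀ n, (G.induce (S n : Set ℕ)).Connected) →
      Tendsto (fun n => ustContains G (S n) F) atTop (𝓝 p) := by
  classical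
  induction F using Finset.strongInduction with
  | H F ih =>
    have ih' : ∀ F' ∈ F.ssubsets, ∃ p : ℝ, ∀ S : ℕ → Finset ℕ, Monotone S → (∀ v, ∃ n, v ∈ S n) →
      (∀ n, (G.induce (S n : Set ℕ)).Connected) →
      Tendsto (fun n => ustContains G (S n) F') atTop (𝓝 p) := by
      intro F' hF'
      rw [Finset.mem_ssubsets] at hF'
      exact ih F' hF' (fun e he => hF (hF'.1 he))
    choose! p hp using ih'
    refine ⟨(1 + Matrix.of fun e f : F => kernInf G e f).det - ∑ F' ∈ F.ssubsets, p F', ?_⟩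
    intro S hm hex hc
    have h1 : Tendsto (fun n => (1 + Matrix.of fun e f : F => kern (cyc G (S n)) e f).det) atTop
        (𝓝 ((1 + Matrix.of fun e f : F => kernInf G e f).det)) := by
      have hcont : Continuous (fun M : Matrix F F ℝ => M.det) := continuous_id.matrix_det
      refine (hcont.tendsto _).comp ?_
      refine tendsto_const_nhds.add ?_
      refine tendsto_pi_nhds.2 fun e => tendsto_pi_nhds.2 fun f => ?_
      exact tendsto_kern G S hm hex e f
    have h2 : Tendsto (fun n => ∑ F' ∈ F.ssubsets, ustContains G (S n) F') atTop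
        (𝓝 (∑ F' ∈ F.ssubsets, p F')) :=
      tendsto_finsetSum _ (fun F' hF' => hp F' hF' S hm hex hc)
    refine (h1.sub h2).congr' ?_
    filter_upwards [eventually_subset_edgesIn F hF S hm hex] with n hn
    have h3 : F.powerset = insert F F.ssubsets := by
      ext A
      simp only [Finset.mem_powerset, Finset.mem_insert, Finset.mem_ssubsets]
      constructor
      · intro h
        rcases eq_or_ssubset_of_subset h with h | h
        · exact Or.inl h
        · exact Or.inr h
      · rintro (h | h)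
        · exact h.le
        · exact h.1
    rw [← sum_ust (hc n) F hn, h3, Finset.sum_insert (by simp)]
    ring

end Crest.Agent.SpTree
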